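import Vale.Agent.Lib.P252.CacFinal

open Vale.Agent.Lib.P252 Vale.Agent.Lib.P252.Caccio MeasureTheory
open scoped ContDiff

/-- The Caccioppoli inequality for solutions of the affine maximal equation in dimension three and
its Liouville theorems.  Here `g = D²u` is the Calabi metric, `gradSq u f = u^{ij} f_i f_j` is
`|∇f|²_g`, and the conclusion of each Liouville statement is that `D = det D²u` is constant.

* The set `Adm` of admissible exponents contains all `(p, β)` with `p ≥ 3` and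
  `|β - 1/5| ≤ (3/20)(p - 1)`, and all `(p, (p + 1)/5)` with `3 ≤ p ≤ 1000`.
* For admissible `(p, β)` there is a universal constant `C` such that
  `∫_Ω D^β ψ^{2p} |∇ log D|_g^{2p} ≤ C ∫_Ω D^β |∇ψ|_g^{2p}` for every solution on an open set `Ω`
  and every `C¹` function `ψ` with compact support in `Ω`.  With `β = (p + 1)/5` this is the same
  inequality for the Blaschke metric `D^{-1/5} g` and its area form `D^{1/5} dx`.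
* Liouville theorems: test functions with small energy; exhaustion functions with energy
  `o(S^{2p})`; exhaustion functions which are `1`-Lipschitz for a conformal metric `D^{-τ} g` and
  whose sublevel sets have polynomial mass (any degree, any power of `D`, `|τ| < 3/20`, in particular
  `τ = 0`, the Calabi metric); the Blaschke metric with volume growth `o(S^{2000})`; Euclidean complete
  graphs with `|∇ū|²_g ≤ C (1 + ū)^a`, `a < 2`; entire solutions with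
  `tr (D²u)⁻¹ ≤ C (1 + ‖x - x₀‖)^a`, `a < 2`; proper gradient maps with
  `tr D²u ≤ C (1 + ‖Dū‖)^b`, `b < 2`. -/
theorem Vale.Agent.Results.P252.ACaccioppoli3D.result :
    (∀ (p : ℕ) (β : ℝ), 3 ≤ p → |β - 1/5| ≤ (3/20) * ((p : ℝ) - 1) → Adm p β) ∧
    (∀ p : ℕ, 3 ≤ p → p ≤ 1000 → Adm p (((p : ℝ) + 1) / 5)) ∧
    (∀ (p : ℕ) (β : ℝ), Adm p β → ∃ C : ℝ, 0 < C ∧ ∀ (Ω : Set (Fin 3 → ℝ)) (u ψ : (Fin 3 → ℝ) → ℝ),
      IsOpen Ω → IsAffineMaximal Ω u → ContDiff ℝ 1 ψ → HasCompactSupport ψ → tsupport ψ ⊆ Ω →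
      ∫ x in Ω, (hess u x).det ^ β *
          (ψ x ^ (2 * p) * gradSq u (fun y => Real.log (hess u y).det) x ^ p) ≤
        C * ∫ x in Ω, (hess u x).det ^ β * gradSq u ψ x ^ p) ∧
    (∀ p : ℕ, 3 ≤ p → p ≤ 1000 → ∃ C : ℝ, 0 < C ∧ ∀ (Ω : Set (Fin 3 → ℝ)) (u ψ : (Fin 3 → ℝ) → ℝ),
      IsOpen Ω → IsAffineMaximal Ω u → ContDiff ℝ 1 ψ → HasCompactSupport ψ → tsupport ψ ⊆ Ω →
      ∫ x in Ω, (hess u x).det ^ (1/5 : ℝ) * (ψ x ^ (2 * p) *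
          ((hess u x).det ^ (1/5 : ℝ) * gradSq u (fun y => Real.log (hess u y).det) x) ^ p) ≤
        C * ∫ x in Ω, (hess u x).det ^ (1/5 : ℝ) *
          ((hess u x).det ^ (1/5 : ℝ) * gradSq u ψ x) ^ p) ∧
    (∀ (Ω : Set (Fin 3 → ℝ)) (u : (Fin 3 → ℝ) → ℝ), IsOpen Ω → IsPreconnected Ω →
      IsAffineMaximal Ω u →
      (∀ (p : ℕ) (β : ℝ), Adm p β →
        (∀ K : Set (Fin 3 → ℝ), IsCompact K → K ⊆ Ω → ∀ ε : ℝ, 0 < ε →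
          ∃ ψ : (Fin 3 → ℝ) → ℝ, ContDiff ℝ 1 ψ ∧ HasCompactSupport ψ ∧ tsupport ψ ⊆ Ω ∧
            (∀ x ∈ K, ψ x = 1) ∧ ∫ x in Ω, (hess u x).det ^ β * gradSq u ψ x ^ p ≤ ε) →
        ∀ x ∈ Ω, ∀ z ∈ Ω, (hess u x).det = (hess u z).det) ∧
      (∀ (p : ℕ) (β : ℝ) (ρ : (Fin 3 → ℝ) → ℝ), Adm p β → ContDiffOn ℝ ∞ ρ Ω →
        (∀ s : ℝ, IsCompact {x | x ∈ Ω ∧ ρ x ≤ s}) →
        (∀ ε : ℝ, 0 < ε → ∀ S₁ : ℝ, ∃ S : ℝ, S₁ ≤ S ∧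
          ∫ x in {x | x ∈ Ω ∧ ρ x < S}, (hess u x).det ^ β * gradSq u ρ x ^ p ≤ ε * S ^ (2 * p)) →
        ∀ x ∈ Ω, ∀ z ∈ Ω, (hess u x).det = (hess u z).det) ∧
      (∀ (τ σ C : ℝ) (m : ℕ) (ρ : (Fin 3 → ℝ) → ℝ), |τ| < 3/20 → ContDiffOn ℝ ∞ ρ Ω →
        (∀ s : ℝ, IsCompact {x | x ∈ Ω ∧ ρ x ≤ s}) →
        (∀ x ∈ Ω, (hess u x).det ^ τ * gradSq u ρ x ≤ 1) →
        (∀ S : ℝ, 1 ≤ S → ∫ x in {x | x ∈ Ω ∧ ρ x < S}, (hess u x).det ^ σ ≤ C * S ^ m) →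
        ∀ x ∈ Ω, ∀ z ∈ Ω, (hess u x).det = (hess u z).det) ∧
      (∀ ρ : (Fin 3 → ℝ) → ℝ, ContDiffOn ℝ ∞ ρ Ω →
        (∀ s : ℝ, IsCompact {x | x ∈ Ω ∧ ρ x ≤ s}) →
        (∀ x ∈ Ω, (hess u x).det ^ (1/5 : ℝ) * gradSq u ρ x ≤ 1) →
        (∀ ε : ℝ, 0 < ε → ∀ S₁ : ℝ, ∃ S : ℝ, S₁ ≤ S ∧
          ∫ x in {x | x ∈ Ω ∧ ρ x < S}, (hess u x).det ^ (1/5 : ℝ) ≤ ε * S ^ 2000) →
        ∀ x ∈ Ω, ∀ z ∈ Ω, (hess u x).det = (hess u z).det)) ∧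
    (∀ (Ω : Set (Fin 3 → ℝ)) (u : (Fin 3 → ℝ) → ℝ) (x₀ : Fin 3 → ℝ), IsOpen Ω → Convex ℝ Ω → x₀ ∈ Ω →
      IsAffineMaximal Ω u →
      (IsEuclideanComplete Ω u → ∀ s : ℝ, IsCompact {x | x ∈ Ω ∧ uBar u x₀ x ≤ s}) ∧
      ((∀ s : ℝ, IsCompact {x | x ∈ Ω ∧ uBar u x₀ x ≤ s}) →
        (∀ (p : ℕ) (β : ℝ), Adm p β →
          (∀ ε : ℝ, 0 < ε → ∀ S₁ : ℝ, ∃ S : ℝ, S₁ ≤ S ∧
            ∫ x in {x | x ∈ Ω ∧ uBar u x₀ x < S},
              (hess u x).det ^ β * gradSq u (uBar u x₀) x ^ p ≤ ε * S ^ (2 * p)) →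
          ∀ x ∈ Ω, ∀ z ∈ Ω, (hess u x).det = (hess u z).det) ∧
        (∀ C a : ℝ, a < 2 → (∀ x ∈ Ω, gradSq u (uBar u x₀) x ≤ C * (1 + uBar u x₀ x) ^ a) →
          ∀ x ∈ Ω, ∀ z ∈ Ω, (hess u x).det = (hess u z).det)) ∧
      ((∀ R : ℝ, IsCompact {x | x ∈ Ω ∧ ‖(fun i => pd i (uBar u x₀) x : Fin 3 → ℝ)‖ ≤ R}) →
        ∀ C b : ℝ, b < 2 →
        (∀ x ∈ Ω, Matrix.trace (hess u x) ≤
          C * (1 + ‖(fun i => pd i (uBar u x₀) x : Fin 3 → ℝ)‖) ^ b) →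
        ∀ x ∈ Ω, ∀ z ∈ Ω, (hess u x).det = (hess u z).det)) ∧
    (∀ (u : (Fin 3 → ℝ) → ℝ) (x₀ : Fin 3 → ℝ) (C a : ℝ), IsAffineMaximal Set.univ u → a < 2 →
      (∀ x, Matrix.trace (hess u x)⁻¹ ≤ C * (1 + ‖x - x₀‖) ^ a) →
      ∀ x z, (hess u x).det = (hess u z).det) := by
  refine ⟨fun p β hp h => adm_of_abs hp h, fun p hp hp2 => adm_blaschke hp hp2,
    fun p β hA => caccioppoli_final hA, fun p hp hp2 => caccioppoli_blaschke hp hp2,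
    fun Ω u hΩ hconn hs => ⟨?_, ?_, ?_, ?_⟩,
    fun Ω u x₀ hΩ hc hx₀ hs => ⟨?_, fun hcpt => ⟨?_, ?_⟩, ?_⟩, ?_⟩
  · exact fun p β hA hcap => capacity_final hA hΩ hconn hs hcap
  · exact fun p β ρ hA hρ hcpt hG => energy_final hA hΩ hconn hs hρ hcpt hG
  · exact fun τ σ C m ρ hτ hρ hcpt hgrad hV => poly_final hτ hΩ hconn hs hρ hcpt hgrad hV
  · exact fun ρ hρ hcpt hgrad hG => blaschke_final hΩ hconn hs hρ hcpt hgrad hG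
  · exact fun hE => isCompact_subLevel_of_complete hΩ hc hs.smooth hs.posDef hx₀ hE
  · exact fun p β hA hG => uBar_energy_final hA hΩ hc hs hcpt hG
  · exact fun C a ha hG => uBar_pointwise_final hΩ hc hx₀ hs hcpt ha hG
  · exact fun hcpt C b hb hT x hx z hz =>
      det_const_of_hess_upper (x₀ := x₀) hs hΩ hc hcpt hb hT hx hz
  · exact fun u x₀ C a hs ha hT x z => det_const_of_hess_lower (x₀ := x₀) hs ha hT x z
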