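import Vale.Agent.Lib.P252.GenN.LogEnergy
import Vale.Agent.Lib.P252.GenN.Stmt

open Vale.Agent.Lib.P252 Vale.Agent.Lib.P252.CaccioN MeasureTheory
open scoped ContDiff

/-- The Caccioppoli inequality for solutions of the affine maximal equation in dimension `n` and its
Liouville theorems, up to dimension ten.  Here `g = D²u` is the Calabi metric,
`gradSq u f = u^{ij} f_i f_j` is `|∇f|²_g`, and the conclusion of each Liouville statement is that
`D = det D²u` is constant.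

* For `3 ≤ n ≤ 10`, an entire solution with `tr (D²u)⁻¹ ≤ C` (that is, `D²u ≥ c I`) has constant `D`.
* `AdmN n p β` (an explicit certificate) holds for the `(n, p, β)` listed in `TableA` and `TableB`.
* For admissible `(n, p, β)`: `CaccioppoliAt n p β` is the inequality
  `∫_Ω D^β ψ^{2p} |∇ log D|_g^{2p} ≤ C ∫_Ω D^β |∇ψ|_g^{2p}` with a universal constant `C`;
  `CriteriaDomain`, `CriteriaEntire`, `CriteriaComplete`, `CriteriaDual` are Liouville theorems. -/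
theorem Vale.Agent.Results.P252.ADimTen.result :
    (∀ (n : ℕ) (u : (Fin n → ℝ) → ℝ) (C : ℝ), 3 ≤ n → n ≤ 10 → IsAffineMaximal Set.univ u →
      (∀ x, Matrix.trace (hess u x)⁻¹ ≤ C) → DetConst Set.univ u) ∧
    TableA ∧ TableB ∧
    ∀ (n p : ℕ) (β : ℝ), AdmN n p β →
      CaccioppoliAt n p β ∧ CriteriaDomain n p β ∧ CriteriaEntire n p β ∧ CriteriaComplete n p β ∧
        CriteriaDual n p β := by
  refine ⟨fun n u C h1 h2 hs hT x _ z _ => entire_dim_ten h1 h2 hs hT x z, ?_, ?_,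
    fun n p β hA => ⟨caccioppoli_final hA, ?_, ?_, ?_, ?_⟩⟩
  · obtain ⟨h3, h4, h5, h6, h7, h8, h9⟩ := table_zero
    obtain ⟨d3, d4, d5⟩ := table_det
    exact ⟨h3, h4, h5, h6, h7, h8, h9, table_high.1, table_high.2, adm_n_10_5, d3, d4, d5⟩
  · obtain ⟨c4, c5, c6⟩ := table_calabi
    obtain ⟨b4, b5⟩ := table_blaschke
    exact ⟨c4, c5, c6, b4, b5⟩
  · intro Ω u hΩ hconn hs
    refine ⟨fun hcap => capacity_final hA hΩ hconn hs hcap,
      fun ρ hρ hG => energy_final hA hΩ hconn hs hρ.1 hρ.2 hG,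
      fun ρ hρ h1 hG => ?_,
      fun τ ρ hρ hgrad hG => metric_final hA hΩ hconn hs hρ.1 hρ.2 hgrad hG⟩
    obtain ⟨A, hA'⟩ := hG
    exact log_energy hA hΩ hconn hs hρ.1 h1 hρ.2 hA'
  · intro u x₀ hs
    refine ⟨fun hI x _ z _ => entire_integral (x₀ := x₀) hA hs hI x z, fun hI x _ z _ => ?_,
      fun a C Λ ha hn hT hΛ x _ z _ => entire_log (x₀ := x₀) hA hs ha hn hT hΛ x z⟩
    obtain ⟨A, hA'⟩ := hI
    exact entire_integral_O (x₀ := x₀) hA hs hA' x z
  · intro Ω u x₀ a C Λ hΩ hc hx₀ hs hE hG hM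
    have hcpt : ∀ s : ℝ, IsCompact {x | x ∈ Ω ∧ uBar u x₀ x ≤ s} := by
      rcases hE with hE | hE
      · exact isCompact_subLevel_of_complete hΩ hc hs.smooth hs.posDef hx₀ hE
      · exact hE
    rcases hM with ⟨hn, hΛ⟩ | ⟨ha, hM⟩
    · exact uBar_bdd hA hΩ hc hx₀ hs hcpt hn hΛ hG
    · exact uBar_mass hA hΩ hc hx₀ hs hcpt ha hG hM
  · intro Ω u x₀ hΩ hc hs hcpt
    refine ⟨fun hI => dual_integral (x₀ := x₀) hA hΩ hc hs hcpt hI, fun hI => ?_, ?_⟩
    · obtain ⟨A, hA'⟩ := hI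
      exact dual_integral_O (x₀ := x₀) hA hΩ hc hs hcpt hA'
    · rintro rfl C b hb hp hT
      exact dual_pointwise (x₀ := x₀) hA hΩ hc hs hcpt hb hp hT
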