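import Vale.Agent.Lib.P252.Final

open Vale.Agent.Lib.P252 MeasureTheory

/-- A Euclidean complete solution of the affine maximal equation cannot live over a bounded convex
domain, nor over any convex domain of finite volume, and its gradient image must have infinite
volume. -/
theorem Vale.Agent.Results.P252.AInfiniteVolume.result {n : ℕ} (hn : 0 < n)
    {Ω : Set (Fin n → ℝ)} {u : (Fin n → ℝ) → ℝ} (hΩ : IsOpen Ω) (hc : Convex ℝ Ω)
    (hne : Ω.Nonempty) (hs : IsAffineMaximal Ω u) (hE : IsEuclideanComplete Ω u) :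
    ¬ Bornology.IsBounded Ω ∧ volume Ω = ⊤ ∧
      ∫⁻ x in Ω, ENNReal.ofReal (hess u x).det = ⊤ :=
  ⟨fun hb => no_bounded hn hs hΩ hc hb hne hE, volume_eq_top hn hs hΩ hc hne hE,
    lintegral_det_eq_top hn hs hΩ hc hne hE⟩
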