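import Vale.Agent.Lib.P252.Det32

open Vale.Agent.Lib.P252 MeasureTheory

/-- In dimension three, a solution of the affine maximal equation on an open convex set with compact
sublevel sets of `ū` (in particular, with Euclidean complete graph, in particular for `Ω = ℝ³`) has
constant Hessian determinant as soon as `D = det D²u` is bounded above, and more generally if
`D ≤ C (1 + ū)^k` with `k < 2/3`, or if `∫_{ū < S} D^{3/2} = o(S⁴)` along a sequence `S → ∞`. For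
`Ω = ℝ³` the bound `D ≤ C (1 + ‖x - x₀‖)^k` with `k < 2/3` is enough. -/
theorem Vale.Agent.Results.P252.BoundedDet3D.result {Ω : Set (Fin 3 → ℝ)}
    {u : (Fin 3 → ℝ) → ℝ} {x₀ : Fin 3 → ℝ} (hΩ : IsOpen Ω) (hc : Convex ℝ Ω) (hx₀ : x₀ ∈ Ω)
    (hs : IsAffineMaximal Ω u) :
    (IsEuclideanComplete Ω u → ∀ s : ℝ, IsCompact {x | x ∈ Ω ∧ uBar u x₀ x ≤ s}) ∧
    (Ω = Set.univ → IsEuclideanComplete Ω u) ∧
    ((∀ s : ℝ, IsCompact {x | x ∈ Ω ∧ uBar u x₀ x ≤ s}) →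
      ((∀ ε : ℝ, 0 < ε → ∀ S₁ : ℝ, ∃ S : ℝ, S₁ ≤ S ∧
        ∫ x in {x | x ∈ Ω ∧ uBar u x₀ x < S}, (hess u x).det ^ (3/2 : ℝ) ≤ ε * S ^ 4) →
        ∀ x ∈ Ω, ∀ y ∈ Ω, (hess u x).det = (hess u y).det) ∧
      (∀ C k : ℝ, k < 2 / 3 → (∀ x ∈ Ω, (hess u x).det ≤ C * (1 + uBar u x₀ x) ^ k) →
        ∀ x ∈ Ω, ∀ y ∈ Ω, (hess u x).det = (hess u y).det) ∧
      (∀ Λ : ℝ, (∀ x ∈ Ω, (hess u x).det ≤ Λ) →
        ∀ x ∈ Ω, ∀ y ∈ Ω, (hess u x).det = (hess u y).det)) ∧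
    (Ω = Set.univ → ∀ C k : ℝ, k < 2 / 3 → (∀ x, (hess u x).det ≤ C * (1 + ‖x - x₀‖) ^ k) →
      ∀ x y, (hess u x).det = (hess u y).det) := by
  refine ⟨fun hE => isCompact_subLevel_of_complete hΩ hc hs.smooth hs.posDef hx₀ hE,
    fun hU => hU ▸ isEuclideanComplete_univ u, fun hcpt =>
    ⟨fun hM _ hx _ hy => Cert32.det_const hs hΩ hc hx₀ hcpt hM hx hy,
      fun _ _ hk hD _ hx _ hy => det_const_of_det_bound hs hΩ hc hx₀ hcpt hk hD hx hy,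
      fun Λ hD _ hx _ hy => det_const_of_det_bound hs hΩ hc hx₀ hcpt (C := Λ) (k := 0)
        (by norm_num) (fun z hz => by simpa using hD z hz) hx hy⟩,
    fun hU => ?_⟩
  subst hU
  exact fun _ _ hk hD x y => det_const_of_det_bound_entire hs hk hD x y
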