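import Vale.Agent.Lib.P252.Grad31

open Vale.Agent.Lib.P252 MeasureTheory

/-- In dimension three, a solution of the affine maximal equation on an open convex set with compact
sublevel sets of `ū` (in particular, with Euclidean complete graph) has constant Hessian determinant
as soon as, along a sequence `S → ∞`, the volume `∫_{ū < S} D` of the gradient image of the sublevel is
`o(S^{31/10})`, or `|Dū| = o(S^{31/30})` on `{ū < S}`, or the sublevels `{ū < S}` and `{ū > 2 S}` are at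
a distance `ρ` with `ρ S^{1/30} → ∞`. For a Euclidean complete graph the determinant is constant as soon
as the gradient of `ū` has comparable norms on each level set of a high level, without any growth
condition. For `Ω = ℝ³` it is constant if `M = o(R m^{31/30})` along a sequence, where `m → ∞` is a
lower bound for `ū` on the sphere of radius `R` and `M` an upper bound on the ball of radius `2R`, in
particular under the two sided power growth `c ‖x - x₀‖^a - C ≤ ū(x) ≤ C ‖x - x₀‖^b + C` with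
`b < 1 + (31/30) a`. -/
theorem Vale.Agent.Results.P252.GapLiouville3D.result {Ω : Set (Fin 3 → ℝ)}
    {u : (Fin 3 → ℝ) → ℝ} {x₀ : Fin 3 → ℝ} (hΩ : IsOpen Ω) (hc : Convex ℝ Ω) (hx₀ : x₀ ∈ Ω)
    (hs : IsAffineMaximal Ω u) :
    (IsEuclideanComplete Ω u → ∀ s : ℝ, IsCompact {x | x ∈ Ω ∧ uBar u x₀ x ≤ s}) ∧
    ((∀ s : ℝ, IsCompact {x | x ∈ Ω ∧ uBar u x₀ x ≤ s}) →
      ((∀ ε : ℝ, 0 < ε → ∀ S₁ : ℝ, ∃ S : ℝ, S₁ ≤ S ∧
        ∫ x in {x | x ∈ Ω ∧ uBar u x₀ x < S}, (hess u x).det ≤ ε * S ^ ((31 : ℝ) / 10)) →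
        ∀ x ∈ Ω, ∀ y ∈ Ω, (hess u x).det = (hess u y).det) ∧
      ((∀ ε : ℝ, 0 < ε → ∀ S₁ : ℝ, ∃ S : ℝ, S₁ ≤ S ∧
        ∀ x ∈ Ω, uBar u x₀ x < S → ∀ i, |pd i (uBar u x₀) x| ≤ ε * S ^ ((31 : ℝ) / 30)) →
        ∀ x ∈ Ω, ∀ y ∈ Ω, (hess u x).det = (hess u y).det) ∧
      ((∀ ε : ℝ, 0 < ε → ∀ S₁ : ℝ, ∃ S ρ : ℝ, S₁ ≤ S ∧ 0 < ρ ∧ S ≤ ε * (ρ * S ^ ((31 : ℝ) / 30)) ∧
        ∀ x ∈ Ω, uBar u x₀ x < S → ∀ z, ‖z - x‖ ≤ ρ → z ∈ Ω ∧ uBar u x₀ z ≤ 2 * S) →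
        ∀ x ∈ Ω, ∀ y ∈ Ω, (hess u x).det = (hess u y).det)) ∧
    (IsEuclideanComplete Ω u → ∀ C S₁ : ℝ,
      (∀ x ∈ Ω, ∀ y ∈ Ω, S₁ ≤ uBar u x₀ x → uBar u x₀ y = uBar u x₀ x →
        ‖(fun i => pd i (uBar u x₀) y : Fin 3 → ℝ)‖ ≤ C * ‖(fun i => pd i (uBar u x₀) x : Fin 3 → ℝ)‖) →
      ∀ x ∈ Ω, ∀ y ∈ Ω, (hess u x).det = (hess u y).det) ∧
    (Ω = Set.univ →
      ((∀ ε : ℝ, 0 < ε → ∀ S₁ : ℝ, ∃ R : ℝ, 0 < R ∧ ∃ m : ℝ, S₁ ≤ m ∧ ∃ M : ℝ,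
        (∀ x, ‖x - x₀‖ = R → m ≤ uBar u x₀ x) ∧ (∀ x, ‖x - x₀‖ ≤ 2 * R → uBar u x₀ x ≤ M) ∧
        M ≤ ε * (R * m ^ ((31 : ℝ) / 30))) →
        ∀ x y, (hess u x).det = (hess u y).det) ∧
      (∀ a b c C : ℝ, 0 < a → 0 < b → 0 < c → b < 1 + 31 / 30 * a →
        (∀ x, c * ‖x - x₀‖ ^ a - C ≤ uBar u x₀ x) → (∀ x, uBar u x₀ x ≤ C * ‖x - x₀‖ ^ b + C) →
        ∀ x y, (hess u x).det = (hess u y).det)) := by
  refine ⟨fun hE => isCompact_subLevel_of_complete hΩ hc hs.smooth hs.posDef hx₀ hE, fun hcpt =>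
    ⟨fun hM _ hx _ hy => det_const_of_gradVolume31 hs hΩ hc hx₀ hcpt hM hx hy,
      fun hG _ hx _ hy => det_const_of_gradient_bound31 hs hΩ hc hx₀ hcpt (fun ε hε S₁ => ?_) hx hy,
      fun hG _ hx _ hy => det_const_of_gap hs hΩ hc hx₀ hcpt hG hx hy⟩,
    fun hE C S₁ h _ hx _ hy => det_const_of_comparable_levels hs hΩ hc hx₀ hE (C := C) (S₁ := S₁) h hx hy,
    fun hU => ?_⟩
  · obtain ⟨S, h1, h2⟩ := hG ε hε (max S₁ 1)
    have hS : 0 < S := lt_of_lt_of_le one_pos ((le_max_right _ _).trans h1)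
    refine ⟨S, (le_max_left _ _).trans h1, fun z hz hzS => ?_⟩
    rw [pi_norm_le_iff_of_nonneg (mul_nonneg hε.le (Real.rpow_nonneg hS.le _))]
    intro i
    rw [Real.norm_eq_abs]
    exact h2 z hz hzS i
  · subst hU
    exact ⟨fun hG x y => det_const_of_growth31 hs hG x y,
      fun _ _ _ _ ha hb hc hab hlow hup x y =>
        det_const_of_power_growth31 hs ha hb hc hab hlow hup x y⟩
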