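import Vale.Agent.Lib.P252.Growth

open Vale.Agent.Lib.P252

/-- Entire solutions of the affine maximal equation on `ℝ³` with constant Hessian determinant: it is
enough that `ū` grows in a controlled way along a sequence of radii, and in particular that it has
two sided power growth `c ‖x - x₀‖^a - C ≤ ū(x) ≤ C ‖x - x₀‖^b + C` with `9 b < 10 a + 3`. The norm is
the sup norm of `Fin 3 → ℝ`. -/
theorem Vale.Agent.Results.P252.GrowthLiouville3D.result {u : (Fin 3 → ℝ) → ℝ} {x₀ : Fin 3 → ℝ}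
    (hs : IsAffineMaximal Set.univ u) :
    ((∀ ε : ℝ, 0 < ε → ∀ S₁ : ℝ, ∃ R : ℝ, 0 < R ∧ ∃ m : ℝ, S₁ ≤ m ∧ ∃ M : ℝ,
        (∀ x, ‖x - x₀‖ = R → m ≤ uBar u x₀ x) ∧ (∀ x, ‖x - x₀‖ ≤ 2 * R → uBar u x₀ x ≤ M) ∧
        M ^ 9 ≤ ε * R ^ 3 * m ^ 10) →
      ∀ x y, (hess u x).det = (hess u y).det) ∧
    (∀ a b c C : ℝ, 0 < a → 0 < b → 0 < c → 9 * b < 10 * a + 3 →
      (∀ x, c * ‖x - x₀‖ ^ a - C ≤ uBar u x₀ x) → (∀ x, uBar u x₀ x ≤ C * ‖x - x₀‖ ^ b + C) →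
      ∀ x y, (hess u x).det = (hess u y).det) :=
  ⟨fun hG x y => det_const_of_growth hs hG x y,
    fun _ _ _ _ ha hb hc hab hlow hup x y => det_const_of_power_growth hs ha hb hc hab hlow hup x y⟩
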