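import Vale.Agent.Lib.P252.Final

open Vale.Agent.Lib.P252 MeasureTheory

/-- Liouville criteria for the affine maximal equation: `det D²u` is constant as soon as a weighted
volume of the sublevel sets of `ū` or of the Legendre potential `v` grows so slowly that the
reciprocal is not integrable at infinity. -/
theorem Vale.Agent.Results.P252.LiouvilleCriterion.result {n : ℕ}
    {Ω : Set (Fin n → ℝ)} {u : (Fin n → ℝ) → ℝ} {x₀ : Fin n → ℝ} (hΩ : IsOpen Ω) (hc : Convex ℝ Ω)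
    (hx₀ : x₀ ∈ Ω) (hs : IsAffineMaximal Ω u) :
    (Ω = Set.univ → IsEuclideanComplete Ω u) ∧
    (IsEuclideanComplete Ω u → ∀ β : ℝ, 1 / ((n : ℝ) + 2) < β → β ≤ 1 →
      ¬ IntegrableOn
        (fun s : ℝ => (∫ x in {x | x ∈ Ω ∧ uBar u x₀ x < s}, (hess u x).det ^ β)⁻¹) (Set.Ioi 1) →
      ∀ x ∈ Ω, ∀ y ∈ Ω, (hess u x).det = (hess u y).det) ∧
    ((∀ s : ℝ, IsCompact {x | x ∈ Ω ∧ vDual u x₀ x ≤ s}) → ∀ β : ℝ, 0 ≤ β → β < 1 / ((n : ℝ) + 2) →
      ¬ IntegrableOn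
        (fun s : ℝ => (∫ x in {x | x ∈ Ω ∧ vDual u x₀ x < s}, (hess u x).det ^ β)⁻¹) (Set.Ioi 1) →
      ∀ x ∈ Ω, ∀ y ∈ Ω, (hess u x).det = (hess u y).det) := by
  refine ⟨fun h => h ▸ isEuclideanComplete_univ u, ?_, ?_⟩
  · intro hE β h1 h2 hV x hx y hy
    exact liouville_primal_beta hs hΩ hc.isPreconnected hx₀
      (isCompact_subLevel_of_complete hΩ hc hs.smooth hs.posDef hx₀ hE) h1 h2 hV hx hy
  · intro hcpt β h1 h2 hV x hx y hy
    exact liouville_dual_beta hs hΩ hc.isPreconnected hx₀ hcpt h1 h2 hV hx hy
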