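import Vale.Agent.Lib.P252.Hess10
import Vale.Agent.Lib.P252.Final

open Vale.Agent.Lib.P252 MeasureTheory

/-- In dimension three, a solution of the affine maximal equation on an open convex set with compact
sublevel sets of `ū` (in particular, with Euclidean complete graph) has constant Hessian determinant
as soon as the mass `∫_{ū < S} D^{3/5}` is `o(S²)` along some sequence `S → ∞`. -/
theorem Vale.Agent.Results.P252.MassLiouville3D.result {Ω : Set (Fin 3 → ℝ)}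
    {u : (Fin 3 → ℝ) → ℝ} {x₀ : Fin 3 → ℝ} (hΩ : IsOpen Ω) (hc : Convex ℝ Ω) (hx₀ : x₀ ∈ Ω)
    (hs : IsAffineMaximal Ω u) :
    (IsEuclideanComplete Ω u → ∀ s : ℝ, IsCompact {x | x ∈ Ω ∧ uBar u x₀ x ≤ s}) ∧
    ((∀ s : ℝ, IsCompact {x | x ∈ Ω ∧ uBar u x₀ x ≤ s}) →
      (∀ ε : ℝ, 0 < ε → ∀ S₁ : ℝ, ∃ S : ℝ, S₁ ≤ S ∧
        ∫ x in {x | x ∈ Ω ∧ uBar u x₀ x < S}, (hess u x).det ^ (3/5 : ℝ) ≤ ε * S ^ 2) →
      ∀ x ∈ Ω, ∀ y ∈ Ω, (hess u x).det = (hess u y).det) :=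
  ⟨fun hE => isCompact_subLevel_of_complete hΩ hc hs.smooth hs.posDef hx₀ hE,
    fun hcpt hM _ hx _ hy => hs.det_const_of_mass hΩ hc hx₀ hcpt hM hx hy⟩
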